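import Vale.Agent.P369.MathlibUsed

/-!
P369 (helper712): the logarithmic mean and the second difference quotient of `x log x`.
-/

set_option linter.all false

namespace Vale.Agent.P369.H712

open Set Filter Topology

noncomputable section

/-- the logarithmic mean (`0` if one of the arguments is not positive) -/
def lm (x y : ℝ) : ℝ :=
  if x ≤ 0 ∨ y ≤ 0 then 0 else if x = y then x else (x - y) / (Real.log x - Real.log y)

/-- `(y log (y/x) - y + x) / (y - x)²` -/
def th (x y : ℝ) : ℝ :=
  if y = x then 1 / (2 * x) else (y * Real.log y - y * Real.log x - y + x) / (y - x) ^ 2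

theorem lm_symm (x y : ℝ) : lm x y = lm y x := by
  unfold lm
  by_cases h : x ≤ 0 ∨ y ≤ 0
  · rw [if_pos h, if_pos (Or.symm h)]
  · rw [if_neg h, if_neg (fun h' => h (Or.symm h'))]
    by_cases h2 : x = y
    · rw [if_pos h2, if_pos h2.symm, h2]
    · rw [if_neg h2, if_neg (Ne.symm h2), ← neg_sub y x, ← neg_sub (Real.log y), neg_div_neg_eq]

theorem lm_self {x : ℝ} (hx : 0 < x) : lm x x = x := by
  unfold lm
  rw [if_neg (by simp [hx]), if_pos rfl]

theorem lm_of_ne {x y : ℝ} (hx : 0 < x) (hy : 0 < y) (h : x ≠ y) :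
    lm x y = (x - y) / (Real.log x - Real.log y) := by
  unfold lm
  rw [if_neg (by simp [hx, hy]), if_neg h]

theorem lm_zero {x y : ℝ} (h : x ≤ 0 ∨ y ≤ 0) : lm x y = 0 := by
  unfold lm; rw [if_pos h]

theorem lm_pos {x y : ℝ} (hx : 0 < x) (hy : 0 < y) : 0 < lm x y := by
  by_cases h : x = y
  · rw [← h, lm_self hx]; exact hx
  · rw [lm_of_ne hx hy h]
    rcases lt_or_gt_of_ne h with h1 | h1
    · have := Real.log_lt_log hx h1
      exact div_pos_of_neg_of_neg (by linarith) (by linarith)
    · have := Real.log_lt_log hy h1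
      exact div_pos (by linarith) (by linarith)

theorem lm_nonneg (x y : ℝ) : 0 ≤ lm x y := by
  by_cases h : x ≤ 0 ∨ y ≤ 0
  · rw [lm_zero h]
  · push_neg at h
    exact (lm_pos h.1 h.2).le

theorem th_add {x y : ℝ} (hx : 0 < x) (hy : 0 < y) : th x y + th y x = 1 / lm x y := by
  by_cases h : x = y
  · subst h
    rw [lm_self hx]
    unfold th
    rw [if_pos rfl]
    field_simp
    norm_num
  · rw [lm_of_ne hx hy h]
    unfold th
    rw [if_neg (Ne.symm h), if_neg h]
    have h1 : x - y ≠ 0 := sub_ne_zero.2 h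
    have h2 : Real.log x - Real.log y ≠ 0 := by
      intro h3
      exact h (Real.log_injOn_pos hx hy (sub_eq_zero.1 h3))
    have h3 : y - x ≠ 0 := sub_ne_zero.2 (Ne.symm h)
    have e : (x - y) ^ 2 = (y - x) ^ 2 := by ring
    rw [e, ← add_div, one_div_div, div_eq_div_iff (pow_ne_zero 2 h3) h1]
    ring

/-! ### bounds -/

/-- `x log x - x + 1 ≤ (x-1)²/2` for `x ≥ 1`, and the reverse for `x ≤ 1` -/
theorem kl_aux1 {x : ℝ} (hx : 0 < x) :
    (1 ≤ x → x * Real.log x - x + 1 ≤ (x - 1) ^ 2 / 2) ∧
    (x ≤ 1 → (x - 1) ^ 2 / 2 ≤ x * Real.log x - x + 1) := by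
  have hd : ∀ u ∈ Ioi (0 : ℝ), HasDerivAt (fun u => (u - 1) ^ 2 / 2 - (u * Real.log u - u + 1))
      ((u - 1) - Real.log u) u := by
    intro u hu
    have hu' : u ≠ 0 := (mem_Ioi.1 hu).ne'
    have h1 : HasDerivAt (fun u : ℝ => (u - 1) ^ 2 / 2) (u - 1) u := by
      have := (((hasDerivAt_id u).sub_const 1).pow 2).div_const 2
      refine this.congr_deriv ?_
      simp
    have h2 : HasDerivAt (fun u : ℝ => u * Real.log u - u + 1) (Real.log u) u := by
      have := ((Real.hasDerivAt_mul_log hu').sub (hasDerivAt_id u)).add_const (1 : ℝ)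
      refine this.congr_deriv ?_
      ring
    exact h1.sub h2
  have hmono : MonotoneOn (fun u => (u - 1) ^ 2 / 2 - (u * Real.log u - u + 1)) (Ioi (0 : ℝ)) := by
    refine monotoneOn_of_deriv_nonneg (convex_Ioi 0) ?_ ?_ ?_
    · exact fun u hu => (hd u hu).continuousAt.continuousWithinAt
    · rw [interior_Ioi]
      exact fun u hu => (hd u hu).differentiableAt.differentiableWithinAt
    · rw [interior_Ioi]
      intro u hu
      rw [(hd u hu).deriv]
      have := Real.log_le_sub_one_of_pos (mem_Ioi.1 hu)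
      linarith
  have h1 : (fun u : ℝ => (u - 1) ^ 2 / 2 - (u * Real.log u - u + 1)) 1 = 0 := by simp
  constructor
  · intro h
    have := hmono (mem_Ioi.2 one_pos) (mem_Ioi.2 hx) h
    rw [h1] at this
    simp only at this
    linarith
  · intro h
    have := hmono (mem_Ioi.2 hx) (mem_Ioi.2 one_pos) h
    rw [h1] at this
    simp only at this
    linarith

/-- `(x-1)²/(2x) ≤ x log x - x + 1` for `x ≥ 1`, and the reverse for `x ≤ 1` -/
theorem kl_aux2 {x : ℝ} (hx : 0 < x) :
    (1 ≤ x → (x - 1) ^ 2 / (2 * x) ≤ x * Real.log x - x + 1) ∧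
    (x ≤ 1 → x * Real.log x - x + 1 ≤ (x - 1) ^ 2 / (2 * x)) := by
  -- apply `kl_aux1`-type argument to `u ↦ (u log u - u + 1) - (u-1)²/(2u)`
  have hd : ∀ u ∈ Ioi (0 : ℝ), HasDerivAt (fun u => (u * Real.log u - u + 1) - (u - 1) ^ 2 / (2 * u))
      (Real.log u - (u ^ 2 - 1) / (2 * u ^ 2)) u := by
    intro u hu
    have hu' : u ≠ 0 := (mem_Ioi.1 hu).ne'
    have h2 : HasDerivAt (fun u : ℝ => u * Real.log u - u + 1) (Real.log u) u := by
      have := ((Real.hasDerivAt_mul_log hu').sub (hasDerivAt_id u)).add_const (1 : ℝ)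
      refine this.congr_deriv ?_
      ring
    have h1 : HasDerivAt (fun u : ℝ => (u - 1) ^ 2 / (2 * u)) ((u ^ 2 - 1) / (2 * u ^ 2)) u := by
      have h3 : HasDerivAt (fun u : ℝ => (u - 1) ^ 2) (2 * (u - 1)) u := by
        have := ((hasDerivAt_id u).sub_const 1).pow 2
        refine this.congr_deriv ?_
        simp
      have h4 : HasDerivAt (fun u : ℝ => 2 * u) 2 u := by
        have := (hasDerivAt_id u).const_mul (2 : ℝ)
        refine this.congr_deriv ?_
        ring
      have := h3.div h4 (by positivity)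
      refine this.congr_deriv ?_
      field_simp
      ring
    exact h2.sub h1
  have hlog : ∀ u ∈ Ioi (0 : ℝ), 0 ≤ Real.log u - (u ^ 2 - 1) / (2 * u ^ 2) := by
    intro u hu
    have hu0 := mem_Ioi.1 hu
    -- `log u = -(1/2) log (u^{-2}) ≥ -(1/2)(u^{-2} - 1)`
    have h1 := Real.log_le_sub_one_of_pos (x := (u ^ 2)⁻¹) (by positivity)
    rw [Real.log_inv, Real.log_pow] at h1
    have e : (u ^ 2 - 1) / (2 * u ^ 2) = (1 - (u ^ 2)⁻¹) / 2 := by
      field_simp
    rw [e]
    push_cast at h1
    linarith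
  have hmono : MonotoneOn (fun u => (u * Real.log u - u + 1) - (u - 1) ^ 2 / (2 * u))
      (Ioi (0 : ℝ)) := by
    refine monotoneOn_of_deriv_nonneg (convex_Ioi 0) ?_ ?_ ?_
    · exact fun u hu => (hd u hu).continuousAt.continuousWithinAt
    · rw [interior_Ioi]
      exact fun u hu => (hd u hu).differentiableAt.differentiableWithinAt
    · rw [interior_Ioi]
      intro u hu
      rw [(hd u hu).deriv]
      exact hlog u hu
  have h1 : (fun u : ℝ => (u * Real.log u - u + 1) - (u - 1) ^ 2 / (2 * u)) 1 = 0 := by simp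
  constructor
  · intro h
    have := hmono (mem_Ioi.2 one_pos) (mem_Ioi.2 hx) h
    rw [h1] at this
    simp only at this
    linarith
  · intro h
    have := hmono (mem_Ioi.2 hx) (mem_Ioi.2 one_pos) h
    rw [h1] at this
    simp only at this
    linarith

theorem th_eq {x y : ℝ} (hx : 0 < x) (h : y ≠ x) (hy : 0 < y) :
    th x y = ((y / x) * Real.log (y / x) - y / x + 1) / (x * (y / x - 1) ^ 2) := by
  unfold th
  rw [if_neg h, Real.log_div hy.ne' hx.ne']
  have h1 : y - x ≠ 0 := sub_ne_zero.2 h
  have h2 : y / x - 1 ≠ 0 := by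
    rw [div_sub_one hx.ne']
    exact div_ne_zero h1 hx.ne'
  have e : x * (y / x - 1) ^ 2 = (y - x) ^ 2 / x := by
    field_simp
  rw [e, div_div_eq_mul_div]
  congr 1
  field_simp

/-- two-sided bound -/
theorem th_bounds {x y : ℝ} (hx : 0 < x) (hy : 0 < y) :
    1 / (2 * max x y) ≤ th x y ∧ th x y ≤ 1 / (2 * min x y) := by
  by_cases h : y = x
  · subst h
    unfold th
    rw [if_pos rfl]
    simp
  rw [th_eq hx h hy]
  set z := y / x with hz
  have hz0 : 0 < z := div_pos hy hx
  have hz1 : z - 1 ≠ 0 := by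
    rw [hz, div_sub_one hx.ne']
    exact div_ne_zero (sub_ne_zero.2 h) hx.ne'
  have hp : 0 < x * (z - 1) ^ 2 := by positivity
  have hyz : y = x * z := by rw [hz]; field_simp
  rcases le_total 1 z with h1 | h1
  · have hxy : x ≤ y := by rw [hyz]; nlinarith
    rw [max_eq_right hxy, min_eq_left hxy]
    constructor
    · rw [div_le_div_iff₀ (by positivity) hp]
      have := (kl_aux2 hz0).1 h1
      rw [div_le_iff₀ (by positivity)] at this
      rw [hyz]
      nlinarith
    · rw [div_le_div_iff₀ hp (by positivity)]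
      have := (kl_aux1 hz0).1 h1
      nlinarith
  · have hxy : y ≤ x := by rw [hyz]; nlinarith
    rw [max_eq_left hxy, min_eq_right hxy]
    constructor
    · rw [div_le_div_iff₀ (by positivity) hp]
      have := (kl_aux1 hz0).2 h1
      nlinarith
    · rw [div_le_div_iff₀ hp (by positivity)]
      have := (kl_aux2 hz0).2 h1
      rw [le_div_iff₀ (by positivity)] at this
      rw [hyz]
      nlinarith

theorem th_nonneg {x y : ℝ} (hx : 0 < x) (hy : 0 < y) : 0 ≤ th x y :=
  le_trans (by have : 0 < max x y := lt_max_of_lt_left hx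
               positivity) (th_bounds hx hy).1

/-- `th x ·` is continuous on the positive axis -/
theorem continuousAt_th {x y : ℝ} (hx : 0 < x) (hy : 0 < y) : ContinuousAt (th x) y := by
  by_cases h : y = x
  · subst h
    have h1 : Tendsto (fun z => 1 / (2 * max y z)) (𝓝 y) (𝓝 (th y y)) := by
      have : ContinuousAt (fun z => 1 / (2 * max y z)) y := by
        refine ContinuousAt.div continuousAt_const (by fun_prop) ?_
        simp [hy.ne']
      have h2 : th y y = 1 / (2 * max y y) := by unfold th; simp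
      rw [h2]
      exact this
    have h2 : Tendsto (fun z => 1 / (2 * min y z)) (𝓝 y) (𝓝 (th y y)) := by
      have : ContinuousAt (fun z => 1 / (2 * min y z)) y := by
        refine ContinuousAt.div continuousAt_const (by fun_prop) ?_
        simp [hy.ne']
      have h2 : th y y = 1 / (2 * min y y) := by unfold th; simp
      rw [h2]
      exact this
    refine tendsto_of_tendsto_of_tendsto_of_le_of_le' h1 h2 ?_ ?_
    · filter_upwards [lt_mem_nhds hy] with z hz using (th_bounds hy hz).1
    · filter_upwards [lt_mem_nhds hy] with z hz using (th_bounds hy hz).2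
  · have h1 : (fun z => (z * Real.log z - z * Real.log x - z + x) / (z - x) ^ 2) =ᶠ[𝓝 y] th x := by
      filter_upwards [isOpen_ne.mem_nhds h] with z hz
      unfold th
      rw [if_neg hz]
    refine ContinuousAt.congr ?_ h1
    have h2 : ContinuousAt (fun z => z * Real.log z) y := Real.continuous_mul_log.continuousAt
    refine ContinuousAt.div ?_ (by fun_prop) (pow_ne_zero 2 (sub_ne_zero.2 h))
    fun_prop

end

end Vale.Agent.P369.H712
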