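import Vale.Agent.P369.Setup

/-!
P369 (helper712): eigenbases of states, traces in eigenbases.
-/

set_option linter.all false

namespace Vale.Agent.P369.H712

open scoped InnerProductSpace ENNReal Topology
open Vale.Agent.P369

noncomputable section

variable {ι κ : Type} {H : Type} [NormedAddCommGroup H] [InnerProductSpace ℂ H] [CompleteSpace H]

/-! ### basis independence of traces -/

theorem re_inner_self (x : H) : (⟪x, x⟫_ℂ).re = ‖x‖ ^ 2 := by
  rw [inner_self_eq_norm_sq_to_K]; norm_cast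

theorem hasSum_sq (b : HilbertBasis ι ℂ H) (x : H) :
    HasSum (fun i => ‖⟪b i, x⟫_ℂ‖ ^ 2) (‖x‖ ^ 2) := by
  have h := Complex.hasSum_re (b.hasSum_inner_mul_inner x x)
  rw [re_inner_self] at h
  have e : (fun i => ‖⟪b i, x⟫_ℂ‖ ^ 2) = fun i => (⟪x, b i⟫_ℂ * ⟪b i, x⟫_ℂ).re := by
    funext i
    rw [← inner_conj_symm x (b i), ← Complex.normSq_eq_conj_mul_self, Complex.ofReal_re,
      Complex.normSq_eq_norm_sq]
  rw [e]
  exact h

theorem hasSum_sq' (b : HilbertBasis ι ℂ H) (x : H) :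
    HasSum (fun i => ‖⟪x, b i⟫_ℂ‖ ^ 2) (‖x‖ ^ 2) := by
  refine (hasSum_sq b x).congr_fun fun i => ?_
  rw [← inner_conj_symm x (b i), RCLike.norm_conj]

theorem tsum_sq_ofReal (b : HilbertBasis ι ℂ H) (x : H) :
    ∑' i, ENNReal.ofReal (‖⟪b i, x⟫_ℂ‖ ^ 2) = ENNReal.ofReal (‖x‖ ^ 2) := by
  have h := hasSum_sq b x
  rw [← h.tsum_eq, ENNReal.ofReal_tsum_of_nonneg (fun _ => by positivity) h.summable]

/-- the sum of `‖A b_i‖²` does not depend on the basis -/
theorem hs_eq (b : HilbertBasis ι ℂ H) (c : HilbertBasis κ ℂ H) {A : H →L[ℂ] H}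
    (hA : IsSelfAdjoint A) :
    ∑' i, ENNReal.ofReal (‖A (b i)‖ ^ 2) = ∑' k, ENNReal.ofReal (‖A (c k)‖ ^ 2) := by
  calc ∑' i, ENNReal.ofReal (‖A (b i)‖ ^ 2)
      = ∑' i, ∑' k, ENNReal.ofReal (‖⟪c k, A (b i)⟫_ℂ‖ ^ 2) := by
        refine tsum_congr fun i => ?_
        rw [tsum_sq_ofReal]
    _ = ∑' k, ∑' i, ENNReal.ofReal (‖⟪c k, A (b i)⟫_ℂ‖ ^ 2) := ENNReal.tsum_comm
    _ = _ := by
        refine tsum_congr fun k => ?_
        rw [← tsum_sq_ofReal b]
        refine tsum_congr fun i => ?_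
        rw [← ContinuousLinearMap.adjoint_inner_left, hA.adjoint_eq, ← inner_conj_symm (A (c k)),
          RCLike.norm_conj]

theorem sqrt_sa (ρ : H →L[ℂ] H) (x y : H) :
    ⟪CFC.sqrt ρ x, y⟫_ℂ = ⟪x, CFC.sqrt ρ y⟫_ℂ := by
  have hs : IsSelfAdjoint (CFC.sqrt ρ) := IsSelfAdjoint.of_nonneg (CFC.sqrt_nonneg ρ)
  rw [← ContinuousLinearMap.adjoint_inner_left, hs.adjoint_eq]

theorem sqrt_sqrt {ρ : H →L[ℂ] H} (hρ : 0 ≤ ρ) (x : H) :
    CFC.sqrt ρ (CFC.sqrt ρ x) = ρ x := by
  have h := CFC.sqrt_mul_sqrt_self ρ hρ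
  exact congrArg (fun T : H →L[ℂ] H => T x) h

theorem inner_eq_sqrt {ρ : H →L[ℂ] H} (hρ : 0 ≤ ρ) (x : H) :
    (⟪x, ρ x⟫_ℂ).re = ‖CFC.sqrt ρ x‖ ^ 2 := by
  rw [← re_inner_self, sqrt_sa, sqrt_sqrt hρ]

/-- the trace of a positive operator -/
def tr (b : HilbertBasis ι ℂ H) (T : H →L[ℂ] H) : ℝ≥0∞ :=
  ∑' i, ENNReal.ofReal (⟪b i, T (b i)⟫_ℂ).re

theorem tr_eq (b : HilbertBasis ι ℂ H) (c : HilbertBasis κ ℂ H) {T : H →L[ℂ] H} (hT : 0 ≤ T) :
    tr b T = tr c T := by
  unfold tr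
  simp only [inner_eq_sqrt hT]
  exact hs_eq b c (IsSelfAdjoint.of_nonneg (CFC.sqrt_nonneg T))

theorem inner_nonneg {T : H →L[ℂ] H} (hT : 0 ≤ T) (x : H) : 0 ≤ (⟪x, T x⟫_ℂ).re := by
  rw [inner_eq_sqrt hT]; positivity

theorem hasSum_of_tr {b : HilbertBasis ι ℂ H} {T : H →L[ℂ] H} (hT : 0 ≤ T) {s : ℝ} (hs : 0 ≤ s)
    (h : tr b T = ENNReal.ofReal s) : HasSum (fun i => (⟪b i, T (b i)⟫_ℂ).re) s := by
  have h1 : ∑' i, ENNReal.ofReal (⟪b i, T (b i)⟫_ℂ).re ≠ ⊤ := by
    unfold tr at h; rw [h]; exact ENNReal.ofReal_ne_top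
  have h2 := ENNReal.summable_toReal h1
  have h3 : Summable fun i => (⟪b i, T (b i)⟫_ℂ).re :=
    h2.congr fun i => ENNReal.toReal_ofReal (inner_nonneg hT _)
  have h4 : ENNReal.ofReal (∑' i, (⟪b i, T (b i)⟫_ℂ).re) = ENNReal.ofReal s := by
    rw [ENNReal.ofReal_tsum_of_nonneg (fun i => inner_nonneg hT _) h3]; exact h
  rw [ENNReal.ofReal_eq_ofReal_iff (tsum_nonneg fun i => inner_nonneg hT _) hs] at h4
  rw [← h4]
  exact h3.hasSum

theorem tr_of_hasSum {b : HilbertBasis ι ℂ H} {T : H →L[ℂ] H} (hT : 0 ≤ T) {s : ℝ}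
    (h : HasSum (fun i => (⟪b i, T (b i)⟫_ℂ).re) s) : tr b T = ENNReal.ofReal s := by
  unfold tr
  rw [← ENNReal.ofReal_tsum_of_nonneg (fun i => inner_nonneg hT _) h.summable, h.tsum_eq]

theorem hasSum_basis (b : HilbertBasis ι ℂ H) (c : HilbertBasis κ ℂ H) {T : H →L[ℂ] H}
    (hT : 0 ≤ T) {s : ℝ} (h : HasSum (fun i => (⟪b i, T (b i)⟫_ℂ).re) s) :
    HasSum (fun i => (⟪c i, T (c i)⟫_ℂ).re) s := by
  have hs : 0 ≤ s := h.nonneg fun i => inner_nonneg hT _
  refine hasSum_of_tr hT hs ?_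
  rw [← tr_eq b c hT, tr_of_hasSum hT h]

/-! ### compactness and eigenbasis -/

/-- an operator with finite Hilbert-Schmidt norm is compact -/
theorem isCompactOperator_of_hs (b : HilbertBasis ι ℂ H) {S : H →L[ℂ] H}
    (h : Summable fun i => ‖S (b i)‖ ^ 2) : IsCompactOperator S := by
  classical
  let F : Finset ι → (H →L[ℂ] H) := fun s => ∑ i ∈ s, (innerSL ℂ (b i)).smulRight (S (b i))
  have hF : ∀ s, IsCompactOperator (F s) := by
    intro s
    refine Finset.induction_on s ?_ ?_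
    · simpa [F] using (isCompactOperator_zero : IsCompactOperator (0 : H → H))
    · intro i s his ih
      have e : (F (insert i s) : H → H) =
          (((innerSL ℂ (b i)).smulRight (S (b i)) : H →L[ℂ] H) : H → H) + (F s : H → H) := by
        simp only [F, Finset.sum_insert his]
        rfl
      rw [e]
      refine IsCompactOperator.add ?_ ih
      have h0 : IsCompactOperator (innerSL ℂ (b i) : H → ℂ) :=
        isCompactOperator_of_locallyCompactSpace_dom (innerSL ℂ (b i))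
      exact h0.clm_comp (ContinuousLinearMap.toSpanSingleton ℂ (S (b i)))
  have hFb : ∀ s i, F s (b i) = if i ∈ s then S (b i) else 0 := by
    intro s i
    simp only [F, ContinuousLinearMap.sum_apply, ContinuousLinearMap.smulRight_apply,
      innerSL_apply_apply]
    have ho := orthonormal_iff_ite.1 b.orthonormal
    simp only [ho, ite_smul, one_smul, zero_smul, Finset.sum_ite_eq']
  have hn : ∀ s, ‖F s - S‖ ≤ Real.sqrt (∑' i, if i ∈ s then 0 else ‖S (b i)‖ ^ 2) := by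
    intro s
    rw [← (ContinuousLinearMap.adjoint (𝕜 := ℂ) (E := H) (F := H)).norm_map (F s - S)]
    refine ContinuousLinearMap.opNorm_le_bound _ (Real.sqrt_nonneg _) fun y => ?_
    have hs1 : Summable fun i => (if i ∈ s then 0 else ‖S (b i)‖ ^ 2 : ℝ) := by
      refine Summable.of_nonneg_of_le (fun i => ?_) (fun i => ?_) h
      · split_ifs <;> positivity
      · split_ifs
        · positivity
        · exact le_rfl
    have h1 := hasSum_sq b (ContinuousLinearMap.adjoint (F s - S) y)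
    have h2 : ‖ContinuousLinearMap.adjoint (F s - S) y‖ ^ 2 ≤
        (∑' i, if i ∈ s then 0 else ‖S (b i)‖ ^ 2) * ‖y‖ ^ 2 := by
      rw [← h1.tsum_eq, ← tsum_mul_right]
      refine Summable.tsum_le_tsum (fun i => ?_) h1.summable (hs1.mul_right _)
      rw [ContinuousLinearMap.adjoint_inner_right, ContinuousLinearMap.sub_apply, hFb]
      split_ifs with hi
      · simp
      · rw [zero_sub, inner_neg_left, norm_neg, ← mul_pow]
        exact pow_le_pow_left₀ (norm_nonneg _) (norm_inner_le_norm _ _) 2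
    have h3 : 0 ≤ ∑' i, if i ∈ s then 0 else ‖S (b i)‖ ^ 2 :=
      tsum_nonneg fun i => by split_ifs <;> positivity
    refine abs_le_of_sq_le_sq' ?_ (by positivity) |>.2
    rw [mul_pow, Real.sq_sqrt h3]
    exact h2
  have ht : Filter.Tendsto (fun s : Finset ι => ∑' i, if i ∈ s then 0 else ‖S (b i)‖ ^ 2)
      Filter.atTop (𝓝 0) := by
    have h1 := tendsto_tsum_compl_atTop_zero fun i => ‖S (b i)‖ ^ 2
    refine h1.congr fun s => ?_
    have h2 := tsum_subtype {i | i ∉ s} (fun i => ‖S (b i)‖ ^ 2)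
    refine h2.trans ?_
    refine tsum_congr fun i => ?_
    by_cases hi : i ∈ s <;> simp [Set.indicator, hi]
  have ht2 : Filter.Tendsto F Filter.atTop (𝓝 S) := by
    rw [tendsto_iff_norm_sub_tendsto_zero]
    have h2 := (Real.continuous_sqrt.tendsto 0).comp ht
    rw [Real.sqrt_zero] at h2
    exact squeeze_zero (fun s => norm_nonneg _) hn h2
  exact isCompactOperator_of_tendsto ht2 (Filter.Eventually.of_forall hF)

/-- a positive operator with finite trace is compact -/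
theorem isCompactOperator_of_trace (b : HilbertBasis ι ℂ H) {T : H →L[ℂ] H} (hT : 0 ≤ T) {s : ℝ}
    (h : HasSum (fun i => (⟪b i, T (b i)⟫_ℂ).re) s) : IsCompactOperator T := by
  have h1 : IsCompactOperator ((CFC.sqrt T : H →L[ℂ] H) : H → H) := by
    refine isCompactOperator_of_hs b ?_
    refine h.summable.congr fun i => ?_
    rw [← inner_eq_sqrt hT]
  have h2 : (T : H → H) = ((CFC.sqrt T : H →L[ℂ] H) : H → H) ∘ (CFC.sqrt T : H →L[ℂ] H) := by
    funext x
    exact (sqrt_sqrt hT x).symm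
  rw [h2]
  exact h1.comp_clm _

/-- eigenbasis of a compact self-adjoint operator -/
theorem exists_eigenbasis {T : H →L[ℂ] H} (hT : IsSelfAdjoint T) (hc : IsCompactOperator T) :
    ∃ (κ : Type) (v : HilbertBasis κ ℂ H) (p : κ → ℝ), ∀ k, T (v k) = (p k : ℂ) • v k := by
  have hsym : (T : H →ₗ[ℂ] H).IsSymmetric := hT.isSymmetric
  have hbot := ContinuousLinearMap.orthogonalComplement_iSup_eigenspaces_eq_bot hc hsym
  let V : ℂ → Submodule ℂ H := fun μ => Module.End.eigenspace (T : Module.End ℂ H) μ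
  have hof : OrthogonalFamily ℂ (fun μ => V μ) fun μ => (V μ).subtypeₗᵢ :=
    hsym.orthogonalFamily_eigenspaces
  have hcl : ∀ μ, IsClosed (V μ : Set H) := by
    intro μ
    have e : (V μ : Set H) = {x | T x = μ • x} := by
      ext x
      simp [V, Module.End.mem_eigenspace_iff]
    rw [e]
    exact isClosed_eq T.continuous (continuous_const_smul μ)
  have hcs : ∀ μ, CompleteSpace (V μ) := fun μ => (hcl μ).completeSpace_coe
  have hex : ∀ μ, ∃ (w : Set (V μ)) (c : HilbertBasis w ℂ (V μ)), ⇑c = ((↑) : w → V μ) :=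
    fun μ => exists_hilbertBasis ℂ (V μ)
  choose w c hcw using hex
  have ho : Orthonormal ℂ fun a : Σ μ, w μ => (V a.1).subtypeₗᵢ (c a.1 a.2) :=
    hof.orthonormal_sigma_orthonormal fun μ => (c μ).orthonormal
  have hspan : (Submodule.span ℂ (Set.range fun a : Σ μ, w μ =>
      (V a.1).subtypeₗᵢ (c a.1 a.2)))ᗮ = ⊥ := by
    rw [Submodule.eq_bot_iff]
    intro x hx
    rw [Submodule.mem_orthogonal] at hx
    have h1 : x ∈ (⨆ μ, V μ)ᗮ := by
      rw [Submodule.mem_orthogonal]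
      intro u hu
      refine Submodule.iSup_induction V (motive := fun u => ⟪u, x⟫_ℂ = 0) hu ?_ ?_ ?_
      · intro μ y hy
        have h2 : ∀ i, ⟪((c μ i : V μ) : H), x⟫_ℂ = 0 := fun i =>
          hx _ (Submodule.subset_span ⟨⟨μ, i⟩, rfl⟩)
        have h3 := ((c μ).hasSum_repr (⟨y, hy⟩ : V μ)).mapL (V μ).subtypeL
        have h4 : HasSum (fun i => ⟪((V μ).subtypeL ((c μ).repr ⟨y, hy⟩ i • c μ i)), x⟫_ℂ)
            ⟪y, x⟫_ℂ := by
          have := h3.mapL (innerSLFlip ℂ x : H →L⋆[ℂ] ℂ)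
          refine this.congr_fun fun i => ?_
          simp [mul_comm]
        have h5 : (fun i => ⟪((V μ).subtypeL ((c μ).repr ⟨y, hy⟩ i • c μ i)), x⟫_ℂ) =
            fun _ => 0 := by
          funext i
          rw [map_smul, inner_smul_left]
          have := h2 i
          simp [this]
        rw [h5] at h4
        exact h4.unique hasSum_zero
      · simp
      · intro y z hy hz
        rw [inner_add_left, hy, hz, add_zero]
    rw [hbot] at h1
    simpa using h1
  refine ⟨Σ μ, w μ, HilbertBasis.mkOfOrthogonalEqBot ho hspan, fun a => a.1.re, ?_⟩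
  rintro ⟨μ, i⟩
  rw [HilbertBasis.coe_mkOfOrthogonalEqBot]
  have h1 : T ((c μ i : V μ) : H) = μ • ((c μ i : V μ) : H) :=
    Module.End.mem_eigenspace_iff.1 (c μ i).2
  have h2 : ((c μ i : V μ) : H) ≠ 0 := by
    have := (c μ).orthonormal.ne_zero i
    simpa using this
  have h3 : (starRingEnd ℂ) μ = μ := by
    have hev : Module.End.HasEigenvalue (T : Module.End ℂ H) μ :=
      Module.End.hasEigenvalue_of_hasEigenvector
        ⟨Module.End.mem_eigenspace_iff.2 h1, h2⟩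
    exact hsym.conj_eigenvalue_eq_self hev
  have h4 : ((μ.re : ℝ) : ℂ) = μ := Complex.conj_eq_iff_re.1 h3
  show T ((c μ i : V μ) : H) = ((μ.re : ℝ) : ℂ) • ((c μ i : V μ) : H)
  rw [h4, h1]

end

end Vale.Agent.P369.H712
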