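import Vale.Agent.P369.H712.LogMean

/-!
P369 (helper712): second-order expansion of the entropy of a Hermitian matrix near a positive
diagonal matrix.
-/

set_option linter.all false

namespace Vale.Agent.P369.H712

open Set Filter Topology Matrix
open scoped ComplexConjugate

noncomputable section

variable {κ : Type} [Fintype κ] [DecidableEq κ]

/-- `a` is a unitary matrix -/
def Uni (a : Matrix κ κ ℂ) : Prop := aᴴ * a = 1 ∧ a * aᴴ = 1

/-- the columns of the unitary `a` are eigenvectors of `M` with eigenvalues `q` -/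
def EigM (M a : Matrix κ κ ℂ) (q : κ → ℝ) : Prop :=
  Uni a ∧ M * a = a * diagonal (fun k => (q k : ℂ))

theorem exists_eigM {M : Matrix κ κ ℂ} (hM : M.IsHermitian) : ∃ a q, EigM M a q := by
  refine ⟨hM.eigenvectorUnitary, hM.eigenvalues, ⟨?_, ?_⟩, ?_⟩
  · exact Unitary.coe_star_mul_self hM.eigenvectorUnitary
  · exact Unitary.coe_mul_star_self hM.eigenvectorUnitary
  · have h := hM.spectral_theorem
    rw [Unitary.conjStarAlgAut_apply] at h
    have h2 : M * (hM.eigenvectorUnitary : Matrix κ κ ℂ) =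
        ((hM.eigenvectorUnitary : Matrix κ κ ℂ) *
          diagonal (RCLike.ofReal ∘ hM.eigenvalues) *
          (star hM.eigenvectorUnitary : Matrix κ κ ℂ)) * (hM.eigenvectorUnitary : Matrix κ κ ℂ) :=
      congrArg (fun N : Matrix κ κ ℂ => N * (hM.eigenvectorUnitary : Matrix κ κ ℂ)) h
    rw [h2, Matrix.mul_assoc, Unitary.coe_star_mul_self, Matrix.mul_one]
    rfl

theorem Uni.row {a : Matrix κ κ ℂ} (h : Uni a) (i j : κ) :
    ∑ k, a i k * conj (a j k) = if i = j then 1 else 0 := by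
  have := congrFun (congrFun h.2 i) j
  rw [Matrix.mul_apply, Matrix.one_apply] at this
  exact this

theorem Uni.col {a : Matrix κ κ ℂ} (h : Uni a) (k l : κ) :
    ∑ i, conj (a i k) * a i l = if k = l then 1 else 0 := by
  have := congrFun (congrFun h.1 k) l
  rw [Matrix.mul_apply, Matrix.one_apply] at this
  exact this

theorem mul_conj_self (z : ℂ) : z * conj z = ((‖z‖ ^ 2 : ℝ) : ℂ) := by
  rw [Complex.mul_conj, Complex.normSq_eq_norm_sq]

theorem conj_mul_self (z : ℂ) : conj z * z = ((‖z‖ ^ 2 : ℝ) : ℂ) := by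
  rw [mul_comm, mul_conj_self]

theorem Uni.row_sq {a : Matrix κ κ ℂ} (h : Uni a) (i : κ) : ∑ k, ‖a i k‖ ^ 2 = 1 := by
  have := h.row i i
  simp only [mul_conj_self, if_true] at this
  exact_mod_cast this

theorem Uni.col_sq {a : Matrix κ κ ℂ} (h : Uni a) (k : κ) : ∑ i, ‖a i k‖ ^ 2 = 1 := by
  have := h.col k k
  simp only [conj_mul_self, if_true] at this
  exact_mod_cast this

theorem Uni.norm_le {a : Matrix κ κ ℂ} (h : Uni a) (i k : κ) : ‖a i k‖ ≤ 1 := by
  have h1 : ‖a i k‖ ^ 2 ≤ 1 := by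
    rw [← h.row_sq i]
    exact Finset.single_le_sum (f := fun k => ‖a i k‖ ^ 2) (fun _ _ => by positivity)
      (Finset.mem_univ k)
  nlinarith [norm_nonneg (a i k)]

theorem EigM.apply {M a : Matrix κ κ ℂ} {q : κ → ℝ} (h : EigM M a q) (i k : κ) :
    ∑ j, M i j * a j k = (q k : ℂ) * a i k := by
  have := congrFun (congrFun h.2 i) k
  rw [Matrix.mul_apply, Matrix.mul_diagonal] at this
  rw [this, mul_comm]

/-- diagonal entries in terms of the eigenvalues -/
theorem EigM.diag {M a : Matrix κ κ ℂ} {q : κ → ℝ} (h : EigM M a q) (i : κ) :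
    M i i = ((∑ k, ‖a i k‖ ^ 2 * q k : ℝ) : ℂ) := by
  have h1 : M = a * diagonal (fun k => (q k : ℂ)) * aᴴ := by
    rw [← h.2, Matrix.mul_assoc, h.1.2, Matrix.mul_one]
  conv_lhs => rw [h1]
  rw [Matrix.mul_apply]
  push_cast
  refine Finset.sum_congr rfl fun k _ => ?_
  rw [Matrix.mul_diagonal, Matrix.conjTranspose_apply]
  have := mul_conj_self (a i k)
  push_cast at this
  rw [← this]
  simp only [RCLike.star_def]
  ring

section pert

variable {D : κ → ℝ} {X a : Matrix κ κ ℂ} {q : κ → ℝ} {t : ℝ}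

/-- the perturbed matrix -/
def pm (D : κ → ℝ) (X : Matrix κ κ ℂ) (t : ℝ) : Matrix κ κ ℂ :=
  diagonal (fun k => (D k : ℂ)) + (t : ℂ) • X

theorem pm_herm (hX : X.IsHermitian) (t : ℝ) : (pm D X t).IsHermitian := by
  unfold pm
  refine Matrix.IsHermitian.add ?_ ?_
  · rw [Matrix.IsHermitian, Matrix.diagonal_conjTranspose]
    congr 1
    funext k
    simp
  · rw [Matrix.IsHermitian, Matrix.conjTranspose_smul, hX.eq]
    simp

/-- `(q_k - D_i) a_ik = t (X a)_ik` -/
theorem pert_entry (h : EigM (pm D X t) a q) (i k : κ) :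
    ((q k - D i : ℝ) : ℂ) * a i k = (t : ℂ) * ∑ j, X i j * a j k := by
  have h1 := h.apply i k
  have h2 : ∑ j, pm D X t i j * a j k = (D i : ℂ) * a i k + (t : ℂ) * ∑ j, X i j * a j k := by
    unfold pm
    simp only [Matrix.add_apply, Matrix.smul_apply, smul_eq_mul, add_mul, Finset.sum_add_distrib,
      Matrix.diagonal_apply, ite_mul, zero_mul, Finset.sum_ite_eq, Finset.mem_univ, if_true,
      Finset.mul_sum]
    congr 1
    refine Finset.sum_congr rfl fun j _ => ?_
    ring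
  rw [h2] at h1
  push_cast
  linear_combination -h1

/-- a bound for the entries of `X a` -/
def cX (X : Matrix κ κ ℂ) : ℝ := ∑ i, ∑ j, ‖X i j‖

theorem cX_nonneg (X : Matrix κ κ ℂ) : 0 ≤ cX X := by
  unfold cX; positivity

theorem Xa_le (ha : Uni a) (i k : κ) : ‖∑ j, X i j * a j k‖ ≤ cX X := by
  refine (norm_sum_le _ _).trans ?_
  have h1 : ∀ j, ‖X i j * a j k‖ ≤ ‖X i j‖ := by
    intro j
    rw [norm_mul]
    have := ha.norm_le j k
    nlinarith [norm_nonneg (X i j), norm_nonneg (a j k)]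
  refine (Finset.sum_le_sum fun j _ => h1 j).trans ?_
  exact Finset.single_le_sum (f := fun i => ∑ j, ‖X i j‖) (fun _ _ => by positivity)
    (Finset.mem_univ i)

theorem pert_norm (h : EigM (pm D X t) a q) (i k : κ) :
    |q k - D i| * ‖a i k‖ ≤ |t| * cX X := by
  have h1 := congrArg norm (pert_entry h i k)
  rw [norm_mul, norm_mul, Complex.norm_real, Complex.norm_real, Real.norm_eq_abs,
    Real.norm_eq_abs] at h1
  rw [h1]
  exact mul_le_mul_of_nonneg_left (Xa_le h.1 i k) (abs_nonneg _)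

/-- lower bound of the perturbed eigenvalues -/
theorem pert_eig_lower (h : EigM (pm D X t) a q) {d : ℝ} (hd : ∀ i, d ≤ D i) (k : κ) :
    d - |t| * (Fintype.card κ * cX X) ≤ q k := by
  -- `q_k = Σ_i conj(a_ik) (M a)_ik`
  have h1 : (q k : ℂ) = ∑ i, conj (a i k) * ((D i : ℂ) * a i k + (t : ℂ) * ∑ j, X i j * a j k) := by
    have h2 : ∀ i, (D i : ℂ) * a i k + (t : ℂ) * ∑ j, X i j * a j k = (q k : ℂ) * a i k := by
      intro i
      have := pert_entry h i k
      push_cast at this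
      linear_combination -this
    simp only [h2]
    have h3 := h.1.col k k
    rw [if_pos rfl] at h3
    calc (q k : ℂ) = (q k : ℂ) * ∑ i, conj (a i k) * a i k := by rw [h3, mul_one]
      _ = _ := by
        rw [Finset.mul_sum]
        refine Finset.sum_congr rfl fun i _ => ?_
        ring
  have h2 : q k = ∑ i, D i * ‖a i k‖ ^ 2 +
      (∑ i, conj (a i k) * ((t : ℂ) * ∑ j, X i j * a j k)).re := by
    have h3 := congrArg Complex.re h1
    rw [Complex.ofReal_re] at h3
    rw [h3]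
    simp only [mul_add, Finset.sum_add_distrib, Complex.add_re]
    congr 1
    rw [Complex.re_sum]
    refine Finset.sum_congr rfl fun i _ => ?_
    have : conj (a i k) * ((D i : ℂ) * a i k) = ((D i * ‖a i k‖ ^ 2 : ℝ) : ℂ) := by
      have := conj_mul_self (a i k)
      push_cast at this ⊢
      rw [← this]
      ring
    rw [this, Complex.ofReal_re]
  have h3 : d ≤ ∑ i, D i * ‖a i k‖ ^ 2 := by
    calc d = ∑ i, d * ‖a i k‖ ^ 2 := by rw [← Finset.mul_sum, h.1.col_sq, mul_one]
      _ ≤ _ := Finset.sum_le_sum fun i _ => mul_le_mul_of_nonneg_right (hd i) (by positivity)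
  have h4 : |(∑ i, conj (a i k) * ((t : ℂ) * ∑ j, X i j * a j k)).re| ≤
      |t| * (Fintype.card κ * cX X) := by
    refine (Complex.abs_re_le_norm _).trans ?_
    refine (norm_sum_le _ _).trans ?_
    calc ∑ i, ‖conj (a i k) * ((t : ℂ) * ∑ j, X i j * a j k)‖ ≤ ∑ _i : κ, |t| * cX X := by
          refine Finset.sum_le_sum fun i _ => ?_
          rw [norm_mul, norm_mul, RCLike.norm_conj, Complex.norm_real, Real.norm_eq_abs]
          have h5 := h.1.norm_le i k
          have h6 := Xa_le (X := X) h.1 i k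
          have h7 : 0 ≤ |t| * cX X := mul_nonneg (abs_nonneg _) (cX_nonneg X)
          calc ‖a i k‖ * (|t| * ‖∑ j, X i j * a j k‖) ≤ 1 * (|t| * cX X) :=
                mul_le_mul h5 (mul_le_mul_of_nonneg_left h6 (abs_nonneg _)) (by positivity)
                  zero_le_one
            _ = _ := one_mul _
      _ = _ := by
        rw [Finset.sum_const, Finset.card_univ, nsmul_eq_mul]
        ring
  have h5 := abs_le.1 h4
  rw [h2]
  linarith [h5.1]

/-- the scalar identity behind the expansion -/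
theorem negMulLog_th {x y : ℝ} (hx : 0 < x) (hy : 0 < y) :
    Real.negMulLog y = Real.negMulLog x - (Real.log x + 1) * (y - x) - (y - x) ^ 2 * th x y := by
  unfold Real.negMulLog th
  by_cases h : y = x
  · subst h; simp
  · rw [if_neg h]
    have h1 : y - x ≠ 0 := sub_ne_zero.2 h
    field_simp
    ring

/-- the exact expansion in two eigenbases -/
theorem pert_exact (h : EigM (pm D X t) a q) (hD : ∀ i, 0 < D i) (hq : ∀ k, 0 < q k) :
    ∑ k, Real.negMulLog (q k) = ∑ i, Real.negMulLog (D i) - t * ∑ i, (Real.log (D i) + 1) *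
      (X i i).re - t ^ 2 * ∑ i, ∑ k, th (D i) (q k) * ‖∑ j, X i j * a j k‖ ^ 2 := by
  have e1 : ∑ k, Real.negMulLog (q k) = ∑ i, ∑ k, ‖a i k‖ ^ 2 * Real.negMulLog (q k) := by
    rw [Finset.sum_comm]
    refine Finset.sum_congr rfl fun k _ => ?_
    rw [← Finset.sum_mul, h.1.col_sq, one_mul]
  have e2 : ∀ i, ∑ k, ‖a i k‖ ^ 2 * q k = D i + t * (X i i).re := by
    intro i
    have h1 := h.diag i
    have h2 := congrArg Complex.re h1
    rw [Complex.ofReal_re] at h2
    rw [← h2]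
    unfold pm
    simp
  have e3 : ∀ i k, ‖a i k‖ ^ 2 * Real.negMulLog (q k) =
      ‖a i k‖ ^ 2 * Real.negMulLog (D i) - (Real.log (D i) + 1) * (‖a i k‖ ^ 2 * q k) +
      (Real.log (D i) + 1) * D i * ‖a i k‖ ^ 2 -
        t ^ 2 * (th (D i) (q k) * ‖∑ j, X i j * a j k‖ ^ 2) := by
    intro i k
    have h1 := congrArg norm (pert_entry h i k)
    rw [norm_mul, norm_mul, Complex.norm_real, Complex.norm_real, Real.norm_eq_abs,
      Real.norm_eq_abs] at h1
    have h2 : (q k - D i) ^ 2 * ‖a i k‖ ^ 2 = t ^ 2 * ‖∑ j, X i j * a j k‖ ^ 2 := by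
      have := congrArg (fun x => x ^ 2) h1
      simp only [mul_pow, sq_abs] at this
      exact this
    rw [negMulLog_th (hD i) (hq k)]
    linear_combination (-th (D i) (q k)) * h2
  rw [e1]
  simp only [e3]
  simp only [Finset.sum_sub_distrib, Finset.sum_add_distrib, ← Finset.mul_sum, ← Finset.sum_mul,
    h.1.row_sq, e2]
  simp only [mul_add, Finset.sum_add_distrib]
  have e4 : ∑ i, (Real.log (D i) + 1) * (t * (X i i).re) =
      t * ∑ i, (Real.log (D i) + 1) * (X i i).re := by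
    rw [Finset.mul_sum]
    refine Finset.sum_congr rfl fun i _ => ?_
    ring
  rw [e4]
  simp only [one_mul, mul_one]
  ring

/-- the limit of the quadratic term -/
theorem pert_quad (hX : X.IsHermitian) (hD : ∀ i, 0 < D i) {ε : ℝ} (hε : 0 < ε) :
    ∃ δ > 0, ∀ t : ℝ, |t| < δ → ∀ (a : Matrix κ κ ℂ) (q : κ → ℝ), EigM (pm D X t) a q →
      (∀ k, 0 < q k) ∧
      |∑ i, ∑ k, th (D i) (q k) * ‖∑ j, X i j * a j k‖ ^ 2 -
        ∑ i, ∑ j, th (D i) (D j) * ‖X i j‖ ^ 2| ≤ ε := by
  classical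
  rcases isEmpty_or_nonempty κ with hκ | hκ
  · exact ⟨1, one_pos, fun t _ a q _ => ⟨fun k => (hκ.false k).elim, by simp [hε.le]⟩⟩
  obtain ⟨i0, hi0⟩ := Finite.exists_min D
  set d := D i0 with hd
  have hd0 : 0 < d := hD i0
  set C := cX X with hC
  have hC0 : 0 ≤ C := cX_nonneg X
  set n : ℝ := (Fintype.card κ : ℝ) with hn
  have hn0 : 0 ≤ n := Nat.cast_nonneg _
  set B := 1 / d with hB
  have hB0 : 0 < B := by positivity
  -- the allowed error
  set S := ∑ i, ∑ j, ∑ j', ‖X i j‖ * ‖X i j'‖ with hS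
  have hS0 : 0 ≤ S := by positivity
  set ε' := ε / (n * S + 1) with hε'
  have hnS : 0 < n * S + 1 := by positivity
  have hε'0 : 0 < ε' := div_pos hε hnS
  have hcont : ∀ p : κ × κ, ∃ δ > 0, ∀ y : ℝ, |y - D p.2| < δ → |th (D p.1) y - th (D p.1) (D p.2)| < ε' := by
    intro p
    have h1 := Metric.continuousAt_iff.1 (continuousAt_th (hD p.1) (hD p.2)) ε' hε'0
    obtain ⟨δ, hδ, h2⟩ := h1
    refine ⟨δ, hδ, fun y hy => ?_⟩
    have := h2 (x := y) (by rwa [Real.dist_eq])
    rwa [Real.dist_eq] at this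
  choose δ₁ hδ₁ hδ₁' using hcont
  obtain ⟨p0, hp0⟩ := Finite.exists_min δ₁
  set δ₂ := δ₁ p0 with hδ₂
  have hδ₂0 : 0 < δ₂ := hδ₁ p0
  refine ⟨min (d / (2 * (n * C + 1))) (ε' * δ₂ / (2 * B * (C + 1))), by positivity, ?_⟩
  intro t ht a q h
  have ht1 : |t| < d / (2 * (n * C + 1)) := lt_of_lt_of_le ht (min_le_left _ _)
  have ht2 : |t| < ε' * δ₂ / (2 * B * (C + 1)) := lt_of_lt_of_le ht (min_le_right _ _)
  have hq2 : ∀ k, d / 2 ≤ q k := by
    intro k
    have h1 := pert_eig_lower h hi0 k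
    have h2 : |t| * (n * C) ≤ d / 2 := by
      rw [lt_div_iff₀ (by positivity)] at ht1
      nlinarith [abs_nonneg t]
    linarith
  have hq0 : ∀ k, 0 < q k := fun k => lt_of_lt_of_le (by positivity) (hq2 k)
  refine ⟨hq0, ?_⟩
  have hthB : ∀ i y, d / 2 ≤ y → |th (D i) y| ≤ B := by
    intro i y hy
    have hy0 : 0 < y := lt_of_lt_of_le (by positivity) hy
    rw [abs_of_nonneg (th_nonneg (hD i) hy0)]
    refine (th_bounds (hD i) hy0).2.trans ?_
    rw [hB]
    have : d / 2 ≤ min (D i) y := le_min (by linarith [hi0 i]) hy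
    rw [div_le_div_iff₀ (by linarith) hd0]
    linarith
  have hDB : ∀ i j, |th (D i) (D j)| ≤ B := fun i j => hthB i _ (by linarith [hi0 j])
  -- the entrywise estimate
  have hent : ∀ i j k, ‖a j k‖ * |th (D i) (q k) - th (D i) (D j)| ≤ ε' := by
    intro i j k
    by_cases hc : |q k - D j| < δ₁ (i, j)
    · have h1 := hδ₁' (i, j) (q k) hc
      have h2 := h.1.norm_le j k
      calc ‖a j k‖ * |th (D i) (q k) - th (D i) (D j)| ≤ 1 * ε' :=
            mul_le_mul h2 h1.le (abs_nonneg _) zero_le_one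
        _ = _ := one_mul _
    · push_neg at hc
      have h1 := pert_norm h j k
      have h2 : δ₂ * ‖a j k‖ ≤ |t| * C := by
        refine le_trans (mul_le_mul_of_nonneg_right ((hp0 (i, j)).trans hc) (norm_nonneg _)) h1
      have h3 : |th (D i) (q k) - th (D i) (D j)| ≤ 2 * B := by
        have := abs_sub (th (D i) (q k)) (th (D i) (D j))
        linarith [hthB i _ (hq2 k), hDB i j]
      have h4 : |t| * (2 * B * (C + 1)) < ε' * δ₂ := by rwa [lt_div_iff₀ (by positivity)] at ht2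
      have h5 : δ₂ * (‖a j k‖ * |th (D i) (q k) - th (D i) (D j)|) ≤ δ₂ * ε' := by
        calc δ₂ * (‖a j k‖ * |th (D i) (q k) - th (D i) (D j)|)
            = (δ₂ * ‖a j k‖) * |th (D i) (q k) - th (D i) (D j)| := by ring
          _ ≤ (|t| * C) * (2 * B) := mul_le_mul h2 h3 (abs_nonneg _) (by positivity)
          _ ≤ δ₂ * ε' := by nlinarith [abs_nonneg t]
      exact le_of_mul_le_mul_left h5 hδ₂0
  -- expansion of the square
  have hsq : ∀ i k, ((‖∑ j, X i j * a j k‖ ^ 2 : ℝ) : ℂ) =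
      ∑ j, ∑ j', X i j * conj (X i j') * (a j k * conj (a j' k)) := by
    intro i k
    rw [← mul_conj_self, map_sum, Finset.sum_mul_sum]
    refine Finset.sum_congr rfl fun j _ => Finset.sum_congr rfl fun j' _ => ?_
    rw [map_mul]
    ring
  have hP : ∀ i j j', ‖∑ k, a j k * conj (a j' k) * (th (D i) (q k) : ℂ) -
      (if j = j' then (th (D i) (D j) : ℂ) else 0)‖ ≤ n * ε' := by
    intro i j j'
    have h1 : (if j = j' then (th (D i) (D j) : ℂ) else 0) =
        ∑ k, a j k * conj (a j' k) * (th (D i) (D j) : ℂ) := by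
      rw [← Finset.sum_mul, h.1.row]
      split_ifs <;> simp
    rw [h1, ← Finset.sum_sub_distrib]
    refine (norm_sum_le _ _).trans ?_
    calc ∑ k, ‖a j k * conj (a j' k) * (th (D i) (q k) : ℂ) -
          a j k * conj (a j' k) * (th (D i) (D j) : ℂ)‖ ≤ ∑ _k : κ, ε' := by
          refine Finset.sum_le_sum fun k _ => ?_
          rw [← mul_sub, norm_mul, norm_mul, RCLike.norm_conj, ← Complex.ofReal_sub,
            Complex.norm_real, Real.norm_eq_abs]
          have h2 := hent i j k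
          have h3 := h.1.norm_le j' k
          calc ‖a j k‖ * ‖a j' k‖ * |th (D i) (q k) - th (D i) (D j)|
              = ‖a j' k‖ * (‖a j k‖ * |th (D i) (q k) - th (D i) (D j)|) := by ring
            _ ≤ 1 * ε' := mul_le_mul h3 h2 (by positivity) zero_le_one
            _ = _ := one_mul _
      _ = _ := by rw [Finset.sum_const, Finset.card_univ, nsmul_eq_mul]
  -- assemble
  have hR : ((∑ i, ∑ k, th (D i) (q k) * ‖∑ j, X i j * a j k‖ ^ 2 : ℝ) : ℂ) =
      ∑ i, ∑ j, ∑ j', X i j * conj (X i j') *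
        ∑ k, a j k * conj (a j' k) * (th (D i) (q k) : ℂ) := by
    push_cast
    refine Finset.sum_congr rfl fun i _ => ?_
    have h1 : ∀ k, (th (D i) (q k) : ℂ) * ((‖∑ j, X i j * a j k‖ : ℝ) : ℂ) ^ 2 =
        ∑ j, ∑ j', X i j * conj (X i j') * (a j k * conj (a j' k) * (th (D i) (q k) : ℂ)) := by
      intro k
      have := hsq i k
      push_cast at this
      rw [this, Finset.mul_sum]
      refine Finset.sum_congr rfl fun j _ => ?_
      rw [Finset.mul_sum]
      refine Finset.sum_congr rfl fun j' _ => ?_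
      ring
    simp only [h1]
    rw [Finset.sum_comm]
    refine Finset.sum_congr rfl fun j _ => ?_
    rw [Finset.sum_comm]
    refine Finset.sum_congr rfl fun j' _ => ?_
    rw [Finset.mul_sum]
  have hR0 : ((∑ i, ∑ j, th (D i) (D j) * ‖X i j‖ ^ 2 : ℝ) : ℂ) =
      ∑ i, ∑ j, ∑ j', X i j * conj (X i j') * (if j = j' then (th (D i) (D j) : ℂ) else 0) := by
    push_cast
    refine Finset.sum_congr rfl fun i _ => Finset.sum_congr rfl fun j _ => ?_
    simp only [mul_ite, mul_zero, Finset.sum_ite_eq, Finset.mem_univ, if_true]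
    have := mul_conj_self (X i j)
    push_cast at this
    rw [this]
    ring
  have hfin : ‖((∑ i, ∑ k, th (D i) (q k) * ‖∑ j, X i j * a j k‖ ^ 2 : ℝ) : ℂ) -
      ((∑ i, ∑ j, th (D i) (D j) * ‖X i j‖ ^ 2 : ℝ) : ℂ)‖ ≤ ε := by
    rw [hR, hR0]
    simp only [← Finset.sum_sub_distrib, ← mul_sub]
    refine (norm_sum_le _ _).trans ?_
    calc ∑ i, ‖∑ j, ∑ j', X i j * conj (X i j') *
          (∑ k, a j k * conj (a j' k) * (th (D i) (q k) : ℂ) -
            (if j = j' then (th (D i) (D j) : ℂ) else 0))‖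
        ≤ ∑ i, ∑ j, ∑ j', ‖X i j‖ * ‖X i j'‖ * (n * ε') := by
          refine Finset.sum_le_sum fun i _ => ?_
          refine (norm_sum_le _ _).trans (Finset.sum_le_sum fun j _ => ?_)
          refine (norm_sum_le _ _).trans (Finset.sum_le_sum fun j' _ => ?_)
          rw [norm_mul, norm_mul, RCLike.norm_conj]
          exact mul_le_mul_of_nonneg_left (hP i j j') (by positivity)
      _ = n * S * ε' := by
          rw [hS]
          simp only [← Finset.sum_mul]
          ring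
      _ ≤ ε := by
          rw [hε', mul_div_assoc', div_le_iff₀ hnS]
          nlinarith
  rw [← Complex.ofReal_sub, Complex.norm_real, Real.norm_eq_abs] at hfin
  exact hfin

/-- second-order expansion of the entropy -/
theorem entropy_expansion (hX : X.IsHermitian) (hD : ∀ i, 0 < D i) {ε : ℝ} (hε : 0 < ε) :
    ∃ δ > 0, ∀ t : ℝ, |t| < δ → ∀ (a : Matrix κ κ ℂ) (q : κ → ℝ), EigM (pm D X t) a q →
      (∀ k, 0 < q k) ∧
      |∑ k, Real.negMulLog (q k) - (∑ i, Real.negMulLog (D i) -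
        t * ∑ i, (Real.log (D i) + 1) * (X i i).re -
        t ^ 2 / 2 * ∑ i, ∑ j, ‖X i j‖ ^ 2 / lm (D i) (D j))| ≤ ε * t ^ 2 := by
  obtain ⟨δ, hδ, h⟩ := pert_quad hX hD hε
  refine ⟨δ, hδ, fun t ht a q hE => ?_⟩
  obtain ⟨h1, h2⟩ := h t ht a q hE
  refine ⟨h1, ?_⟩
  rw [pert_exact hE hD h1]
  have e : ∑ i, ∑ j, ‖X i j‖ ^ 2 / lm (D i) (D j) =
      2 * ∑ i, ∑ j, th (D i) (D j) * ‖X i j‖ ^ 2 := by
    have e1 : ∑ i, ∑ j, th (D i) (D j) * ‖X i j‖ ^ 2 = ∑ i, ∑ j, th (D j) (D i) * ‖X i j‖ ^ 2 := by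
      rw [Finset.sum_comm]
      refine Finset.sum_congr rfl fun j _ => Finset.sum_congr rfl fun i _ => ?_
      have : ‖X i j‖ = ‖X j i‖ := by
        have := hX.apply i j
        rw [← this, RCLike.star_def, RCLike.norm_conj]
      rw [this]
    rw [two_mul]
    nth_rw 2 [e1]
    rw [← Finset.sum_add_distrib]
    refine Finset.sum_congr rfl fun i _ => ?_
    rw [← Finset.sum_add_distrib]
    refine Finset.sum_congr rfl fun j _ => ?_
    rw [← add_mul, th_add (hD i) (hD j)]
    ring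
  rw [e]
  have e2 : ∑ i, Real.negMulLog (D i) - t * ∑ i, (Real.log (D i) + 1) * (X i i).re -
      t ^ 2 * ∑ i, ∑ k, th (D i) (q k) * ‖∑ j, X i j * a j k‖ ^ 2 -
      (∑ i, Real.negMulLog (D i) - t * ∑ i, (Real.log (D i) + 1) * (X i i).re -
        t ^ 2 / 2 * (2 * ∑ i, ∑ j, th (D i) (D j) * ‖X i j‖ ^ 2)) =
      -(t ^ 2 * (∑ i, ∑ k, th (D i) (q k) * ‖∑ j, X i j * a j k‖ ^ 2 -
        ∑ i, ∑ j, th (D i) (D j) * ‖X i j‖ ^ 2)) := by ring
  rw [e2, abs_neg, abs_mul, abs_of_nonneg (sq_nonneg t), mul_comm ε]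
  exact mul_le_mul_of_nonneg_left h2 (sq_nonneg t)

end pert

end

end Vale.Agent.P369.H712
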