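import Vale.Agent.P369.H712.FinSO

/-!
P369 (helper712): the first- and second-order conditions at a minimiser, for matrices.
-/

set_option linter.all false

namespace Vale.Agent.P369.H712

open Set Filter Topology Matrix
open scoped ComplexConjugate

noncomputable section

section ent

variable {κ : Type} [Fintype κ] [DecidableEq κ]

/-- the entropy of a Hermitian matrix -/
def Sq (M : Matrix κ κ ℂ) : ℝ := by
  classical
  exact if h : M.IsHermitian then ∑ i, Real.negMulLog (h.eigenvalues i) else 0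

/-- spectral sums do not depend on the eigenbasis -/
theorem EigM.sum_eq {M a a' : Matrix κ κ ℂ} {q q' : κ → ℝ} (h : EigM M a q) (h' : EigM M a' q')
    (f : ℝ → ℝ) : ∑ k, f (q k) = ∑ k, f (q' k) := by
  -- `w = aᴴ a'` is unitary and `(q k - q' l) w k l = 0`
  set w := aᴴ * a' with hw
  have hM : aᴴ * M = diagonal (fun k => (q k : ℂ)) * aᴴ := by
    have h1 : M = a * diagonal (fun k => (q k : ℂ)) * aᴴ := by
      rw [← h.2, Matrix.mul_assoc, h.1.2, Matrix.mul_one]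
    calc aᴴ * M = aᴴ * (a * diagonal (fun k => (q k : ℂ)) * aᴴ) := by rw [← h1]
      _ = (aᴴ * a) * diagonal (fun k => (q k : ℂ)) * aᴴ := by simp only [Matrix.mul_assoc]
      _ = _ := by rw [h.1.1, Matrix.one_mul]
  have h1 : diagonal (fun k => (q k : ℂ)) * w = w * diagonal (fun k => (q' k : ℂ)) := by
    rw [hw, ← Matrix.mul_assoc, ← hM, Matrix.mul_assoc, h'.2, Matrix.mul_assoc]
  have h2 : ∀ k l, (q k : ℂ) * w k l = w k l * (q' l : ℂ) := by
    intro k l
    have := congrFun (congrFun h1 k) l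
    rwa [Matrix.diagonal_mul, Matrix.mul_diagonal] at this
  have h3 : ∀ k l, ‖w k l‖ ^ 2 * f (q k) = ‖w k l‖ ^ 2 * f (q' l) := by
    intro k l
    by_cases h4 : w k l = 0
    · rw [h4]; simp
    · have h5 : (q k : ℂ) = (q' l : ℂ) := by
        have := h2 k l
        rw [mul_comm] at this
        exact mul_left_cancel₀ h4 this
      have h6 : q k = q' l := by exact_mod_cast h5
      rw [h6]
  have hu : Uni w := by
    constructor
    · rw [hw, Matrix.conjTranspose_mul, Matrix.conjTranspose_conjTranspose, Matrix.mul_assoc,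
        ← Matrix.mul_assoc a, h.1.2, Matrix.one_mul, h'.1.1]
    · rw [hw, Matrix.conjTranspose_mul, Matrix.conjTranspose_conjTranspose, Matrix.mul_assoc,
        ← Matrix.mul_assoc a', h'.1.2, Matrix.one_mul, h.1.1]
  calc ∑ k, f (q k) = ∑ k, ∑ l, ‖w k l‖ ^ 2 * f (q k) := by
        refine Finset.sum_congr rfl fun k _ => ?_
        rw [← Finset.sum_mul, hu.row_sq, one_mul]
    _ = ∑ k, ∑ l, ‖w k l‖ ^ 2 * f (q' l) :=
        Finset.sum_congr rfl fun k _ => Finset.sum_congr rfl fun l _ => h3 k l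
    _ = ∑ l, f (q' l) := by
        rw [Finset.sum_comm]
        refine Finset.sum_congr rfl fun l _ => ?_
        rw [← Finset.sum_mul, hu.col_sq, one_mul]

theorem eigM_herm {M a : Matrix κ κ ℂ} {q : κ → ℝ} (h : EigM M a q) : M.IsHermitian := by
  have h1 : M = a * diagonal (fun k => (q k : ℂ)) * aᴴ := by
    rw [← h.2, Matrix.mul_assoc, h.1.2, Matrix.mul_one]
  rw [h1, Matrix.IsHermitian, Matrix.conjTranspose_mul, Matrix.conjTranspose_mul,
    Matrix.conjTranspose_conjTranspose, Matrix.diagonal_conjTranspose, Matrix.mul_assoc]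
  congr 2
  congr 1
  funext k
  simp

theorem eigM_eigenvalues {M : Matrix κ κ ℂ} (hM : M.IsHermitian) :
    EigM M hM.eigenvectorUnitary hM.eigenvalues := by
  refine ⟨⟨?_, ?_⟩, ?_⟩
  · exact Unitary.coe_star_mul_self hM.eigenvectorUnitary
  · exact Unitary.coe_mul_star_self hM.eigenvectorUnitary
  · have h := hM.spectral_theorem
    rw [Unitary.conjStarAlgAut_apply] at h
    have h2 : M * (hM.eigenvectorUnitary : Matrix κ κ ℂ) =
        ((hM.eigenvectorUnitary : Matrix κ κ ℂ) *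
          diagonal (RCLike.ofReal ∘ hM.eigenvalues) *
          (star hM.eigenvectorUnitary : Matrix κ κ ℂ)) * (hM.eigenvectorUnitary : Matrix κ κ ℂ) :=
      congrArg (fun N : Matrix κ κ ℂ => N * (hM.eigenvectorUnitary : Matrix κ κ ℂ)) h
    rw [h2, Matrix.mul_assoc, Unitary.coe_star_mul_self, Matrix.mul_one]
    rfl

theorem Sq_eq {M a : Matrix κ κ ℂ} {q : κ → ℝ} (h : EigM M a q) :
    Sq M = ∑ k, Real.negMulLog (q k) := by
  unfold Sq
  rw [dif_pos (eigM_herm h)]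
  exact (eigM_eigenvalues (eigM_herm h)).sum_eq h _

theorem eigM_diagonal (q : κ → ℝ) : EigM (diagonal fun k => (q k : ℂ)) 1 q := by
  refine ⟨⟨by simp, by simp⟩, by simp⟩

theorem Sq_diagonal (q : κ → ℝ) :
    Sq (diagonal fun k => (q k : ℂ)) = ∑ k, Real.negMulLog (q k) := Sq_eq (eigM_diagonal q)

/-- unitary invariance -/
theorem EigM.conj {M a : Matrix κ κ ℂ} {q : κ → ℝ} (h : EigM M a q) {u : Matrix κ κ ℂ}
    (hu : Uni u) : EigM (u * M * uᴴ) (u * a) q := by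
  refine ⟨⟨?_, ?_⟩, ?_⟩
  · rw [Matrix.conjTranspose_mul, Matrix.mul_assoc, ← Matrix.mul_assoc uᴴ, hu.1, Matrix.one_mul,
      h.1.1]
  · rw [Matrix.conjTranspose_mul, Matrix.mul_assoc, ← Matrix.mul_assoc a, h.1.2, Matrix.one_mul,
      hu.2]
  · rw [Matrix.mul_assoc, ← Matrix.mul_assoc uᴴ, hu.1, Matrix.one_mul, Matrix.mul_assoc, h.2,
      Matrix.mul_assoc]

theorem Sq_conj {M u : Matrix κ κ ℂ} (hM : M.IsHermitian) (hu : Uni u) :
    Sq (u * M * uᴴ) = Sq M := by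
  obtain ⟨a, q, h⟩ := exists_eigM hM
  rw [Sq_eq h, Sq_eq (h.conj hu)]

end ent

section so

variable {ι κ : Type} [Fintype ι] [DecidableEq ι] [Fintype κ] [DecidableEq κ]

/-- the norm `Σ |X_ij|² / lm(p_i, p_j)` -/
def qI (p : ι → ℝ) (X : Matrix ι ι ℂ) : ℝ := ∑ i, ∑ j, ‖X i j‖ ^ 2 / lm (p i) (p j)

/-- the norm `Σ lm(p_i, p_j) |X_ij|²` -/
def qJ (p : ι → ℝ) (X : Matrix ι ι ℂ) : ℝ := ∑ i, ∑ j, lm (p i) (p j) * ‖X i j‖ ^ 2

theorem qI_nonneg (p : ι → ℝ) (X : Matrix ι ι ℂ) : 0 ≤ qI p X :=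
  Finset.sum_nonneg fun i _ => Finset.sum_nonneg fun j _ => div_nonneg (by positivity)
    (lm_nonneg _ _)

theorem qJ_nonneg (p : ι → ℝ) (X : Matrix ι ι ℂ) : 0 ≤ qJ p X :=
  Finset.sum_nonneg fun i _ => Finset.sum_nonneg fun j _ => mul_nonneg (lm_nonneg _ _)
    (by positivity)

/-- a quadratic inequality from a one-sided bound near `0` -/
theorem quad_aux {L Q : ℝ} (h : ∀ ε > 0, ∃ δ > 0, ∀ t : ℝ, |t| < δ →
    0 ≤ t * L + t ^ 2 * Q + ε * t ^ 2) : L = 0 ∧ 0 ≤ Q := by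
  have hL : L = 0 := by
    obtain ⟨δ, hδ, h1⟩ := h 1 one_pos
    by_contra hne
    have hpos : 0 < |L| := abs_pos.2 hne
    -- take `t = - sign L * s`
    set s := min (δ / 2) (|L| / (2 * (|Q| + 2))) with hs
    have hs0 : 0 < s := by positivity
    have hs1 : s < δ := lt_of_le_of_lt (min_le_left _ _) (by linarith)
    have hs2 : s * (2 * (|Q| + 2)) ≤ |L| := by
      have := min_le_right (δ / 2) (|L| / (2 * (|Q| + 2)))
      rw [← hs, le_div_iff₀ (by positivity)] at this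
      exact this
    have hq := le_abs_self Q
    rcases lt_or_gt_of_ne hne with h2 | h2
    · have h3 := h1 s (by rw [abs_of_pos hs0]; exact hs1)
      rw [abs_of_neg h2] at hs2
      nlinarith
    · have h3 := h1 (-s) (by rw [abs_neg, abs_of_pos hs0]; exact hs1)
      rw [abs_of_pos h2] at hs2
      nlinarith
  refine ⟨hL, ?_⟩
  by_contra hQ
  push_neg at hQ
  obtain ⟨δ, hδ, h1⟩ := h (-Q / 2) (by linarith)
  have h2 := h1 (δ / 2) (by rw [abs_of_pos (by positivity)]; linarith)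
  rw [hL] at h2
  have : 0 < (δ / 2) ^ 2 := by positivity
  nlinarith

variable {p : ι → ℝ} {r : κ → ℝ} {Φ : Matrix ι ι ℂ →ₗ[ℂ] Matrix κ κ ℂ} {α β : ℝ}

/-- first- and second-order conditions, Hermitian directions -/
theorem so_primal (hp : ∀ i, 0 < p i) (hr : ∀ k, 0 < r k)
    (hΦ : ∀ X : Matrix ι ι ℂ, X.IsHermitian → (Φ X).IsHermitian) (hα : 0 ≤ α) (hβ : 0 ≤ β)
    {X : Matrix ι ι ℂ} (hX : X.IsHermitian) {l : ℝ}
    (hmin : ∃ δ > 0, ∀ t : ℝ, |t| < δ → 0 ≤ α * (Sq (pm r (Φ X) t) - Sq (diagonal fun k => (r k : ℂ)))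
      - β * (Sq (pm p X t) - Sq (diagonal fun i => (p i : ℂ))) + t * l) :
    (l - α * ∑ k, (Real.log (r k) + 1) * (Φ X k k).re +
      β * ∑ i, (Real.log (p i) + 1) * (X i i).re = 0) ∧
    α * qI r (Φ X) ≤ β * qI p X := by
  obtain ⟨δ₀, hδ₀, hm⟩ := hmin
  have key := quad_aux (L := l - α * ∑ k, (Real.log (r k) + 1) * (Φ X k k).re +
      β * ∑ i, (Real.log (p i) + 1) * (X i i).re) (Q := (β * qI p X - α * qI r (Φ X)) / 2) ?_
  · exact ⟨key.1, by linarith [key.2]⟩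
  intro ε hε
  set ε' := ε / (α + β + 1) with hε'
  have hab : 0 < α + β + 1 := by linarith
  have hε'0 : 0 < ε' := div_pos hε hab
  obtain ⟨δ₁, hδ₁, h1⟩ := entropy_expansion hX hp hε'0
  obtain ⟨δ₂, hδ₂, h2⟩ := entropy_expansion (hΦ X hX) hr hε'0
  refine ⟨min δ₀ (min δ₁ δ₂), by positivity, fun t ht => ?_⟩
  have ht0 : |t| < δ₀ := lt_of_lt_of_le ht (min_le_left _ _)
  have ht1 : |t| < δ₁ := lt_of_lt_of_le ht ((min_le_right _ _).trans (min_le_left _ _))
  have ht2 : |t| < δ₂ := lt_of_lt_of_le ht ((min_le_right _ _).trans (min_le_right _ _))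
  obtain ⟨a, q, hE⟩ := exists_eigM (pm_herm (D := p) hX t)
  obtain ⟨c, s, hF⟩ := exists_eigM (pm_herm (D := r) (hΦ X hX) t)
  have e1 := (h1 t ht1 a q hE).2
  have e2 := (h2 t ht2 c s hF).2
  have e0 := hm t ht0
  rw [Sq_eq hE, Sq_eq hF, Sq_diagonal, Sq_diagonal] at e0
  rw [abs_le] at e1 e2
  have hsum : ε' * (α + β + 1) = ε := by rw [hε']; field_simp
  have ht3 : 0 ≤ t ^ 2 := sq_nonneg t
  unfold qI
  have a1 := mul_le_mul_of_nonneg_left e2.2 hα
  have a2 := mul_le_mul_of_nonneg_left e1.1 hβ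
  have a3 : 0 ≤ ε' * t ^ 2 := by positivity
  nlinarith

/-- Hermitian part -/
def hp1 (X : Matrix ι ι ℂ) : Matrix ι ι ℂ := (2⁻¹ : ℂ) • (X + Xᴴ)

/-- anti-Hermitian part divided by `i` -/
def hp2 (X : Matrix ι ι ℂ) : Matrix ι ι ℂ := (-(Complex.I) / 2) • (X - Xᴴ)

theorem hp1_herm (X : Matrix ι ι ℂ) : (hp1 X).IsHermitian := by
  unfold hp1
  rw [Matrix.IsHermitian, Matrix.conjTranspose_smul, Matrix.conjTranspose_add,
    Matrix.conjTranspose_conjTranspose, add_comm]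
  simp

theorem hp2_herm (X : Matrix ι ι ℂ) : (hp2 X).IsHermitian := by
  unfold hp2
  rw [Matrix.IsHermitian, Matrix.conjTranspose_smul, Matrix.conjTranspose_sub,
    Matrix.conjTranspose_conjTranspose, ← neg_sub X, smul_neg, ← neg_smul]
  congr 1
  rw [RCLike.star_def, map_div₀, map_neg, Complex.conj_I, Complex.conj_ofNat]
  ring

theorem hp_add (X : Matrix ι ι ℂ) : X = hp1 X + Complex.I • hp2 X := by
  unfold hp1 hp2
  ext i j
  simp only [Matrix.add_apply, Matrix.smul_apply, Matrix.sub_apply, smul_eq_mul]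
  linear_combination ((1 / 2 : ℂ)) * (X i j - Xᴴ i j) * Complex.I_mul_I

theorem hp_norm (X : Matrix ι ι ℂ) (i j : ι) :
    ‖hp1 X i j‖ ^ 2 + ‖hp2 X i j‖ ^ 2 = (‖X i j‖ ^ 2 + ‖X j i‖ ^ 2) / 2 := by
  have h := parallelogram_law_with_norm ℝ (X i j) (Xᴴ i j)
  have e1 : ‖hp1 X i j‖ = ‖X i j + Xᴴ i j‖ / 2 := by
    unfold hp1
    rw [Matrix.smul_apply, Matrix.add_apply, smul_eq_mul, norm_mul]
    norm_num
    ring
  have e2 : ‖hp2 X i j‖ = ‖X i j - Xᴴ i j‖ / 2 := by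
    unfold hp2
    rw [Matrix.smul_apply, Matrix.sub_apply, smul_eq_mul, norm_mul, norm_div, norm_neg,
      Complex.norm_I]
    norm_num
    ring
  have e3 : ‖Xᴴ i j‖ = ‖X j i‖ := by
    rw [Matrix.conjTranspose_apply, RCLike.star_def, RCLike.norm_conj]
  rw [e1, e2]
  rw [e3] at h
  nlinarith

theorem qI_parts (X : Matrix ι ι ℂ) : qI p (hp1 X) + qI p (hp2 X) = qI p X := by
  unfold qI
  have e : ∀ i j, ‖hp1 X i j‖ ^ 2 / lm (p i) (p j) + ‖hp2 X i j‖ ^ 2 / lm (p i) (p j) =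
      (1 / 2) * (‖X i j‖ ^ 2 / lm (p i) (p j)) + (1 / 2) * (‖X j i‖ ^ 2 / lm (p j) (p i)) := by
    intro i j
    rw [← add_div, hp_norm, lm_symm (p j)]
    ring
  simp only [← Finset.sum_add_distrib, e]
  simp only [Finset.sum_add_distrib, ← Finset.mul_sum]
  have e2 : ∑ i, ∑ j, ‖X j i‖ ^ 2 / lm (p j) (p i) = ∑ i, ∑ j, ‖X i j‖ ^ 2 / lm (p i) (p j) :=
    Finset.sum_comm
  rw [e2]
  ring

theorem Φ_parts (hΦ : ∀ X : Matrix ι ι ℂ, X.IsHermitian → (Φ X).IsHermitian)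
    (X : Matrix ι ι ℂ) : (Φ X)ᴴ = Φ Xᴴ := by
  have h1 := hp_add X
  have h2 : Xᴴ = hp1 X - Complex.I • hp2 X := by
    conv_lhs => rw [h1]
    rw [Matrix.conjTranspose_add, Matrix.conjTranspose_smul, (hp1_herm X).eq, (hp2_herm X).eq]
    simp [sub_eq_add_neg]
  conv_lhs => rw [h1]
  rw [h2, map_add, map_sub, map_smul, Matrix.conjTranspose_add,
    Matrix.conjTranspose_smul, (hΦ _ (hp1_herm X)).eq, (hΦ _ (hp2_herm X)).eq]
  simp [sub_eq_add_neg]

/-- the second-order condition for all matrices of trace `0` -/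
theorem so_primal_complex
    (hΦ : ∀ X : Matrix ι ι ℂ, X.IsHermitian → (Φ X).IsHermitian)
    (h : ∀ X : Matrix ι ι ℂ, X.IsHermitian → X.trace = 0 → α * qI r (Φ X) ≤ β * qI p X)
    {X : Matrix ι ι ℂ} (hX : X.trace = 0) : α * qI r (Φ X) ≤ β * qI p X := by
  have ht : (Xᴴ).trace = 0 := by rw [Matrix.trace_conjTranspose, hX, star_zero]
  have h1 : (hp1 X).trace = 0 := by
    unfold hp1; rw [Matrix.trace_smul, Matrix.trace_add, hX, ht]; simp
  have h2 : (hp2 X).trace = 0 := by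
    unfold hp2; rw [Matrix.trace_smul, Matrix.trace_sub, hX, ht]; simp
  have e1 : Φ (hp1 X) = hp1 (Φ X) := by
    unfold hp1
    rw [map_smul, map_add, Φ_parts hΦ]
  have e2 : Φ (hp2 X) = hp2 (Φ X) := by
    unfold hp2
    rw [map_smul, map_sub, Φ_parts hΦ]
  have a1 := h _ (hp1_herm X) h1
  have a2 := h _ (hp2_herm X) h2
  rw [e1] at a1
  rw [e2] at a2
  have b1 := qI_parts (p := p) X
  have b2 := qI_parts (p := r) (Φ X)
  rw [← b1, ← b2]
  linarith

/-- the dual form of the second-order condition -/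
theorem so_dual (hp : ∀ i, 0 < p i) (hp1 : ∑ i, p i = 1) (hr : ∀ k, 0 < r k) (hα : 0 < α)
    (hβ : 0 ≤ β)
    (h : ∀ X : Matrix ι ι ℂ, X.trace = 0 → α * qI r (Φ X) ≤ β * qI p X)
    {Z : Matrix κ κ ℂ} {V : Matrix ι ι ℂ}
    (hV : ∀ X : Matrix ι ι ℂ, (Zᴴ * Φ X).trace = (Vᴴ * X).trace) :
    α * qJ p (V - (∑ i, (p i : ℂ) * V i i) • (1 : Matrix ι ι ℂ)) ≤ β * qJ r Z := by
  set m : ℂ := ∑ i, (p i : ℂ) * V i i with hm
  set W : Matrix ι ι ℂ := V - m • (1 : Matrix ι ι ℂ) with hW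
  set X : Matrix ι ι ℂ := fun i j => (lm (p i) (p j) : ℂ) * W i j with hX
  have hWd : ∀ i, W i i = V i i - m := by
    intro i; rw [hW, Matrix.sub_apply, Matrix.smul_apply, Matrix.one_apply_eq]; simp
  have htr : X.trace = 0 := by
    have h1 : X.trace = ∑ i, (p i : ℂ) * (V i i - m) := by
      unfold Matrix.trace
      refine Finset.sum_congr rfl fun i _ => ?_
      rw [Matrix.diag_apply, hX]
      simp only [lm_self (hp i), hWd]
    rw [h1]
    simp only [mul_sub, Finset.sum_sub_distrib, ← Finset.sum_mul]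
    have h2 : ∑ i, (p i : ℂ) = 1 := by exact_mod_cast hp1
    rw [h2, ← hm]
    ring
  have hQ : (Vᴴ * X).trace = ((qJ p W : ℝ) : ℂ) := by
    have h1 : (Vᴴ * X).trace = (Wᴴ * X).trace + conj m * X.trace := by
      have : V = W + m • (1 : Matrix ι ι ℂ) := by rw [hW]; abel
      conv_lhs => rw [this]
      rw [Matrix.conjTranspose_add, Matrix.conjTranspose_smul, Matrix.conjTranspose_one,
        Matrix.add_mul, Matrix.trace_add, Matrix.smul_mul, Matrix.one_mul, Matrix.trace_smul]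
      rfl
    rw [h1, htr, mul_zero, add_zero]
    unfold Matrix.trace qJ
    push_cast
    rw [Finset.sum_comm]
    refine Finset.sum_congr rfl fun j _ => ?_
    rw [Matrix.diag_apply, Matrix.mul_apply]
    refine Finset.sum_congr rfl fun i _ => ?_
    rw [Matrix.conjTranspose_apply, hX]
    simp only
    have := conj_mul_self (W i j)
    push_cast at this
    rw [← this]
    simp only [RCLike.star_def]
    ring
  have hXI : qI p X = qJ p W := by
    unfold qI qJ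
    refine Finset.sum_congr rfl fun i _ => Finset.sum_congr rfl fun j _ => ?_
    rw [hX]
    simp only
    rw [norm_mul, Complex.norm_real, Real.norm_eq_abs, abs_of_pos (lm_pos (hp i) (hp j)), mul_pow]
    have := (lm_pos (hp i) (hp j)).ne'
    field_simp
  -- Cauchy-Schwarz
  have hcs : ‖(Zᴴ * Φ X).trace‖ ^ 2 ≤ qJ r Z * qI r (Φ X) := by
    have h1 : ‖(Zᴴ * Φ X).trace‖ ≤ ∑ kl : κ × κ, (Real.sqrt (lm (r kl.1) (r kl.2)) * ‖Z kl.1 kl.2‖) *
        (‖Φ X kl.1 kl.2‖ / Real.sqrt (lm (r kl.1) (r kl.2))) := by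
      have h2 : (Zᴴ * Φ X).trace = ∑ kl : κ × κ, conj (Z kl.1 kl.2) * Φ X kl.1 kl.2 := by
        unfold Matrix.trace
        rw [Fintype.sum_prod_type, Finset.sum_comm]
        refine Finset.sum_congr rfl fun l _ => ?_
        rw [Matrix.diag_apply, Matrix.mul_apply]
        refine Finset.sum_congr rfl fun k _ => ?_
        rw [Matrix.conjTranspose_apply, RCLike.star_def]
      rw [h2]
      refine (norm_sum_le _ _).trans (Finset.sum_le_sum fun kl _ => ?_)
      rw [norm_mul, RCLike.norm_conj]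
      have h3 : 0 < Real.sqrt (lm (r kl.1) (r kl.2)) := Real.sqrt_pos.2 (lm_pos (hr _) (hr _))
      rw [mul_comm (Real.sqrt _) _, mul_assoc, mul_div_cancel₀ _ h3.ne']
    have h2 := Finset.sum_mul_sq_le_sq_mul_sq (Finset.univ : Finset (κ × κ))
      (fun kl => Real.sqrt (lm (r kl.1) (r kl.2)) * ‖Z kl.1 kl.2‖)
      (fun kl => ‖Φ X kl.1 kl.2‖ / Real.sqrt (lm (r kl.1) (r kl.2)))
    have h3 : ∑ kl : κ × κ, (Real.sqrt (lm (r kl.1) (r kl.2)) * ‖Z kl.1 kl.2‖) ^ 2 = qJ r Z := by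
      unfold qJ
      rw [Fintype.sum_prod_type]
      refine Finset.sum_congr rfl fun k _ => Finset.sum_congr rfl fun l _ => ?_
      rw [mul_pow, Real.sq_sqrt (lm_nonneg _ _)]
    have h4 : ∑ kl : κ × κ, (‖Φ X kl.1 kl.2‖ / Real.sqrt (lm (r kl.1) (r kl.2))) ^ 2 =
        qI r (Φ X) := by
      unfold qI
      rw [Fintype.sum_prod_type]
      refine Finset.sum_congr rfl fun k _ => Finset.sum_congr rfl fun l _ => ?_
      rw [div_pow, Real.sq_sqrt (lm_nonneg _ _)]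
    rw [h3, h4] at h2
    exact (pow_le_pow_left₀ (norm_nonneg _) h1 2).trans h2
  rw [hV X, hQ, Complex.norm_real, Real.norm_eq_abs, sq_abs] at hcs
  have h5 := h X htr
  rw [hXI] at h5
  have h6 : 0 ≤ qJ p W := qJ_nonneg _ _
  have h7 : 0 ≤ qJ r Z := qJ_nonneg _ _
  have h8 : α * (qJ p W) ^ 2 ≤ β * qJ r Z * qJ p W := by
    calc α * (qJ p W) ^ 2 ≤ α * (qJ r Z * qI r (Φ X)) := mul_le_mul_of_nonneg_left hcs hα.le
      _ = qJ r Z * (α * qI r (Φ X)) := by ring
      _ ≤ qJ r Z * (β * qJ p W) := mul_le_mul_of_nonneg_left h5 h7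
      _ = _ := by ring
  rcases h6.eq_or_lt with h9 | h9
  · rw [← h9, mul_zero]; exact mul_nonneg hβ h7
  · have : α * qJ p W * qJ p W ≤ β * qJ r Z * qJ p W := by
      calc α * qJ p W * qJ p W = α * (qJ p W) ^ 2 := by ring
        _ ≤ _ := h8
    exact le_of_mul_le_mul_right this h9

end so

end

end Vale.Agent.P369.H712
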